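import Vale.Agent.P372.H948.Key
import Vale.Agent.P372.H116.Cont
import Vale.Agent.P372.H740.Scale
import Vale.Agent.P372.H897.CliffT

/-! The corner inequality for all numbers of copies. -/

open Matrix Kronecker
open scoped ComplexOrder MatrixOrder

namespace Vale.Agent.P372.H948

set_option linter.unusedSectionVars false

section noise

variable {ι : Type} [Fintype ι] [DecidableEq ι]
variable {C : Type} [Fintype C] [DecidableEq C]

/-- the kernel in the convention of `Sites` -/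
def fl (t : H897.Ker C) : Ker C := fun p q p' q' => t p' q' p q

theorem pm_fl (T : H897.Ker C) (Z : Matrix (ι → C) (ι → C) ℂ) :
    pm (fun _ => fl T) Z = H897.ap (H897.pk T) Z := by
  ext p q
  show ∑ p' : ι → C, ∑ q' : ι → C, (∏ i, T (p' i) (q' i) (p i) (q i)) * Z p' q' =
    ∑ p' : ι → C, ∑ q' : ι → C, Z p' q' * ∏ s, T (p' s) (q' s) (p s) (q s)
  exact Finset.sum_congr rfl fun p' _ => Finset.sum_congr rfl fun q' _ => mul_comm _ _

/-- the noise on all sites -/
def noi (T : H897.Ker C) : Matrix (ι → C) (ι → C) ℂ →ₗ[ℂ] Matrix (ι → C) (ι → C) ℂ where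
  toFun := H897.ap (H897.pk T)
  map_add' := H897.ap_add _
  map_smul' := fun c X => H897.ap_smul _ c X

theorem noi_apply (T : H897.Ker C) (Z : Matrix (ι → C) (ι → C) ℂ) :
    noi T Z = pm (fun _ => fl T) Z := (pm_fl T Z).symm

theorem hm_of_sf {a : Type} [Fintype a] [DecidableEq a] {t : H897.Ker a} (h : H897.SF t) :
    H897.HM t := by
  intro p q i j
  have := congrFun (congrFun h.choi.1 (q, j)) (p, i)
  exact this

theorem noise {T : H897.Ker C} (h : H897.SF T) (hd : H897.SD T) (hu : H897.UN T) :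
    H116.Noise (noi (ι := ι) T) where
  one := (H897.UN.pk hu).one
  tr := H897.trace_preserving (H897.SD.pk hd) (H897.UN.pk hu)
  dual := (H897.SD.pk hd).trace
  star := fun X => (hm_of_sf h.pk).conj X
  pos2 := fun _ _ _ hM => H897.ap_blocks h.pk.choi hM
  flip := fun Y => h.pk.coSchwarz Y

theorem comp_fl {T : H897.Ker C} (hd : H897.SD T) (hu : H897.UN T) (V : Matrix C C ℂ) :
    comp (trK V) (fl T) = comp (fl T) (trK (H897.ap T V)) := by
  funext p q p'' q''
  have h1 : comp (trK V) (fl T) p q p'' q'' =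
      (if p = q then ((Fintype.card C : ℂ))⁻¹ else 0) * ∑ a, ∑ b, V b a * T p'' q'' a b := by
    show ∑ a, ∑ b, ((if p = q then ((Fintype.card C : ℂ))⁻¹ else 0) * V b a) * T p'' q'' a b = _
    rw [Finset.mul_sum]
    refine Finset.sum_congr rfl fun a _ => ?_
    rw [Finset.mul_sum]
    exact Finset.sum_congr rfl fun b _ => by ring
  have h2 : comp (fl T) (trK (H897.ap T V)) p q p'' q'' =
      (∑ a, T a a p q) * (((Fintype.card C : ℂ))⁻¹ * H897.ap T V q'' p'') := by
    show ∑ a, ∑ b, T a b p q * ((if a = b then ((Fintype.card C : ℂ))⁻¹ else 0) *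
      H897.ap T V q'' p'') = _
    rw [Finset.sum_mul]
    refine Finset.sum_congr rfl fun a _ => ?_
    rw [Finset.sum_eq_single a]
    · rw [if_pos rfl]
    · intro b _ hb
      rw [if_neg (Ne.symm hb), zero_mul, mul_zero]
    · intro hh; exact absurd (Finset.mem_univ a) hh
  have h3 : H897.ap T V q'' p'' = ∑ a, ∑ b, V b a * T p'' q'' a b := by
    show ∑ x, ∑ y, V x y * T x y q'' p'' = _
    rw [Finset.sum_comm]
    exact Finset.sum_congr rfl fun a _ => Finset.sum_congr rfl fun b _ => by rw [hd b a q'' p'']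
  rw [h1, h2, h3, hu p q]
  by_cases hpq : p = q
  · simp only [if_pos hpq, one_mul]
  · simp only [if_neg hpq, zero_mul]

theorem dual_fl {T : H897.Ker C} (hd : H897.SD T) (W : Matrix C C ℂ) :
    dual (fl T) W = H897.ap T W := by
  ext q' p'
  show ∑ p, ∑ q, W q p * T p' q' p q = ∑ x, ∑ y, W x y * T x y q' p'
  rw [Finset.sum_comm]
  exact Finset.sum_congr rfl fun a _ => Finset.sum_congr rfl fun b _ => by rw [hd a b q' p']

end noise

section gap

variable {X : Type} [Fintype X] [DecidableEq X]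

theorem exists_gap {M : Matrix X X ℂ} (hM : M.PosDef) :
    ∃ e : ℝ, 0 < e ∧ (M - (e : ℂ) • (1 : Matrix X X ℂ)).PosSemidef := by
  by_cases hne : Nonempty X
  · obtain ⟨i0, hi0⟩ := Finite.exists_min hM.1.eigenvalues
    refine ⟨hM.1.eigenvalues i0, hM.eigenvalues_pos i0, ?_⟩
    set U : Matrix X X ℂ := (hM.1.eigenvectorUnitary : Matrix X X ℂ) with hU
    have hUU : U * Uᴴ = 1 := by
      have := (hM.1.eigenvectorUnitary).2
      exact (Matrix.mem_unitaryGroup_iff.1 this)
    have hsp : M = U * diagonal (fun i => (hM.1.eigenvalues i : ℂ)) * Uᴴ := by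
      have := hM.1.spectral_theorem
      simpa [Unitary.conjStarAlgAut_apply, Function.comp_def, hU,
        Matrix.star_eq_conjTranspose] using this
    have h1 : M - ((hM.1.eigenvalues i0 : ℝ) : ℂ) • (1 : Matrix X X ℂ) =
        U * diagonal (fun i => ((hM.1.eigenvalues i - hM.1.eigenvalues i0 : ℝ) : ℂ)) * Uᴴ := by
      have h2 : (diagonal (fun i => ((hM.1.eigenvalues i - hM.1.eigenvalues i0 : ℝ) : ℂ)) :
          Matrix X X ℂ) = diagonal (fun i => (hM.1.eigenvalues i : ℂ)) -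
            ((hM.1.eigenvalues i0 : ℝ) : ℂ) • (1 : Matrix X X ℂ) := by
        ext i j
        by_cases hij : i = j
        · subst hij
          simp
        · simp [hij]
      rw [h2, Matrix.mul_sub, Matrix.sub_mul, ← hsp, Matrix.mul_smul, Matrix.mul_one,
        Matrix.smul_mul, hUU]
    rw [h1]
    refine PosSemidef.mul_mul_conjTranspose_same ?_ U
    refine Matrix.PosSemidef.diagonal fun i => ?_
    show (0 : ℂ) ≤ ((hM.1.eigenvalues i - hM.1.eigenvalues i0 : ℝ) : ℂ)
    exact_mod_cast sub_nonneg.2 (hi0 i)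
  · have : IsEmpty X := not_nonempty_iff.1 hne
    refine ⟨1, one_pos, ?_⟩
    have h0 : M - ((1 : ℝ) : ℂ) • (1 : Matrix X X ℂ) = 0 := Subsingleton.elim _ _
    rw [h0]
    exact Matrix.PosSemidef.zero

theorem posDef_of_gap {M : Matrix X X ℂ} {e : ℝ} (he : 0 < e)
    (h : (M - (e : ℂ) • (1 : Matrix X X ℂ)).PosSemidef) : M.PosDef := by
  have h2 : ((e : ℂ) • (1 : Matrix X X ℂ)).PosDef := by
    have : (0 : ℂ) < (e : ℂ) := by exact_mod_cast he
    exact PosDef.one.smul this
  have h3 := h2.add_posSemidef h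
  have h4 : (e : ℂ) • (1 : Matrix X X ℂ) + (M - (e : ℂ) • (1 : Matrix X X ℂ)) = M := by abel
  rwa [h4] at h3

end gap

variable {ι : Type} [Fintype ι] [DecidableEq ι]
variable {A B : Type} [Fintype A] [DecidableEq A] [Fintype B] [DecidableEq B]

theorem act_fl {T : H897.Ker (A × B)} (hd : H897.SD T) (hu : H897.UN T)
    (V : Matrix (A × B) (A × B) ℂ) (S : Finset ι) (X : Matrix (ι → A × B) (ι → A × B) ℂ) :
    pm (act V S) (noi T X) = noi T (pm (act (H897.ap T V) S) X) := by
  rw [noi_apply, noi_apply, pm_comp, pm_comp]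
  congr 1
  funext i
  unfold act
  by_cases hS : i ∈ S
  · simp only [if_pos hS, comp_fl hd hu]
  · simp only [if_neg hS, id_comp, comp_id]

theorem noi_ot (t : H897.Ker A) (t' : H897.Ker B) (a : Matrix (ι → A) (ι → A) ℂ)
    (b : Matrix (ι → B) (ι → B) ℂ) :
    noi (H897.kt t t') (ot a b) = ot (noi t a) (noi t' b) := by
  rw [noi_apply, noi_apply, noi_apply]
  have h : ∀ (i : ι) (p q p' q' : A × B), (fun _ : ι => fl (H897.kt t t')) i p q p' q' =
      (fun _ : ι => fl t) i p.1 q.1 p'.1 q'.1 * (fun _ : ι => fl t') i p.2 q.2 p'.2 q'.2 :=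
    fun i p q p' q' => rfl
  exact pm_ot (κ := fun _ : ι => fl (H897.kt t t')) (κA := fun _ : ι => fl t)
    (κB := fun _ : ι => fl t') h a b

/-- the weights of the patterns -/
theorem sum_wt_act [Nonempty A] [Nonempty B] (v : ℝ) (W : Matrix (A × B) (A × B) ℂ)
    (X : Matrix (ι → A × B) (ι → A × B) ℂ) :
    ∑ S : Finset ι, wt v S * (pm (act W S) X).trace.re =
      (pt (fun _ => W + (v : ℂ) • 1) * X).trace.re := by
  have h1 : ∀ S : Finset ι, (wt v S : ℂ) * (pm (act W S) X).trace =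
      (pt (fun i => if i ∈ S then W else (v : ℂ) • 1) * X).trace := by
    intro S
    have h2 : (pm (act W S) X).trace = (pt (fun i : ι => if i ∈ S then W else 1) * X).trace := by
      have h3 := pair_pm (fun _ : ι => (1 : Matrix (A × B) (A × B) ℂ)) (act W S) X
      rw [pt_one, Matrix.one_mul] at h3
      rw [h3]
      congr 3
      funext i
      unfold act
      by_cases hS : i ∈ S
      · simp only [if_pos hS, dual_tr]
      · simp only [if_neg hS, dual_id]
    rw [h2, wt_cast, ← smul_eq_mul, ← Matrix.trace_smul, ← Matrix.smul_mul, ← pt_smul]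
    congr 3
    funext i
    by_cases hS : i ∈ S
    · simp only [if_pos hS, one_smul]
    · simp only [if_neg hS]
  have h4 : ∑ S : Finset ι, (wt v S : ℂ) * (pm (act W S) X).trace =
      (pt (fun _ => W + (v : ℂ) • 1) * X).trace := by
    simp only [h1]
    rw [← Matrix.trace_sum, ← Finset.sum_mul, ← pt_expand (fun _ => W) (fun _ => (v : ℂ) • 1)]
  rw [← h4, Complex.re_sum]
  exact Finset.sum_congr rfl fun S _ => by rw [Complex.re_ofReal_mul]

theorem pair_noi {T : H897.Ker (A × B)} (hd : H897.SD T) (W : Matrix (A × B) (A × B) ℂ)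
    (X : Matrix (ι → A × B) (ι → A × B) ℂ) :
    (pt (fun _ : ι => W) * noi T X).trace = (pt (fun _ => H897.ap T W) * X).trace := by
  rw [noi_apply, pair_pm]
  simp only [dual_fl hd]

theorem act_one (W : Matrix (A × B) (A × B) ℂ) (S : Finset ι) :
    pm (act W S) 1 = (∏ i : ι, (if i ∈ S then ((Fintype.card (A × B) : ℂ))⁻¹ * W.trace else 1)) •
      (1 : Matrix (ι → A × B) (ι → A × B) ℂ) := by
  refine pm_one fun i p q => ?_
  unfold act
  by_cases hS : i ∈ S
  · simp only [if_pos hS, trK]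
    rw [← Finset.mul_sum]
    by_cases hpq : p = q
    · simp only [if_pos hpq]
      rfl
    · simp only [if_neg hpq, zero_mul]
  · simp only [if_neg hS, idK]
    by_cases hpq : p = q
    · subst hpq
      rw [Finset.sum_eq_single p]
      · simp
      · intro b _ hb
        rw [if_neg fun h => hb h.1.symm]
      · intro hh; exact absurd (Finset.mem_univ p) hh
    · rw [if_neg hpq]
      refine Finset.sum_eq_zero fun b _ => ?_
      rw [if_neg fun h => hpq (h.1.trans h.2.symm)]

theorem act_posDef [Nonempty A] [Nonempty B] {W : Matrix (A × B) (A × B) ℂ} (hW : W.PosSemidef)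
    (hW0 : 0 < W.trace.re) (S : Finset ι) {X : Matrix (ι → A × B) (ι → A × B) ℂ}
    (hX : X.PosDef) : (pm (act W S) X).PosDef := by
  obtain ⟨e, he, hXe⟩ := exists_gap hX
  have h1 := pm_psd (act_cp hW S) hXe
  rw [pm_sub, pm_smul, act_one] at h1
  have him : W.trace = ((W.trace.re : ℝ) : ℂ) := by
    have := hW.trace_nonneg
    rw [Complex.le_def] at this
    apply Complex.ext
    · simp
    · simpa using this.2.symm
  have h2 : (∏ i : ι, (if i ∈ S then ((Fintype.card (A × B) : ℂ))⁻¹ * W.trace else 1)) =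
      ((∏ i : ι, (if i ∈ S then ((Fintype.card (A × B) : ℝ))⁻¹ * W.trace.re else 1) : ℝ) : ℂ) := by
    rw [Complex.ofReal_prod]
    refine Finset.prod_congr rfl fun i _ => ?_
    by_cases hS : i ∈ S
    · rw [if_pos hS, if_pos hS, him]
      push_cast
      simp
    · rw [if_neg hS, if_neg hS, Complex.ofReal_one]
  rw [h2, smul_smul, ← Complex.ofReal_mul] at h1
  refine posDef_of_gap (mul_pos he (Finset.prod_pos fun i _ => ?_)) h1
  split
  · have : (0 : ℝ) < (Fintype.card (A × B) : ℝ) := by exact_mod_cast Fintype.card_pos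
    positivity
  · exact one_pos

/-- **The corner inequality**, sites together. -/
theorem corner_sites [Nonempty A] [Nonempty B] {t : H897.Ker A} {t' : H897.Ker B}
    (hf : H897.SF t) (hf' : H897.SF t') (hd : H897.SD t) (hd' : H897.SD t') (hu : H897.UN t)
    (hu' : H897.UN t') {v : ℝ} (hv : 0 ≤ v) {V : Matrix (A × B) (A × B) ℂ}
    (hV : V.PosSemidef) (hV' : ((v : ℂ) • 1 - V).PosSemidef) (hV0 : 0 < V.trace.re)
    {a₀ a₁ : Matrix (ι → A) (ι → A) ℂ} {b₀ b₁ : Matrix (ι → B) (ι → B) ℂ}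
    {C : Matrix (ι → A × B) (ι → A × B) ℂ} (ha₀ : a₀.PosSemidef) (ha₁ : a₁.PosSemidef)
    (hb₀ : b₀.PosSemidef) (hb₁ : b₁.PosSemidef) (hX : (ot a₀ b₀).PosDef)
    (hC : (fromBlocks (ot a₀ b₀) C Cᴴ (ot a₁ b₁)).PosSemidef) (μ : ℝ) :
    4 * μ * (pt (fun _ => H897.ap (H897.kt t t') (V + (v : ℂ) • 1)) * C).trace.re -
      2 * μ ^ 2 * ((pt (fun _ => H897.ap (H897.kt t t') (V + (v : ℂ) • 1)) * ot a₀ b₀).trace.re +
        (pt (fun _ => H897.ap (H897.kt t t') (V + (v : ℂ) • 1)) * ot a₁ b₁).trace.re) ≤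
      ((pt (fun _ => H897.ap (H897.kt t t') (V + (v : ℂ) • 1)) * ot a₀ b₁).trace.re +
        (pt (fun _ => H897.ap (H897.kt t t') (V + (v : ℂ) • 1)) * ot a₁ b₀).trace.re) / 2 := by
  set T := H897.kt t t' with hT
  have hTf : H897.SF T := hf.kt hf'
  have hTd : H897.SD T := hd.kt hd'
  have hTu : H897.UN T := hu.kt hu'
  have hR : H897.ap T (V + (v : ℂ) • 1) = H897.ap T V + (v : ℂ) • 1 := by
    rw [H897.ap_add, H897.ap_smul, hTu.one]
  set W := H897.ap T V with hW
  have hWp : W.PosSemidef := H897.ap_psd hTf.choi hV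
  have hW0 : 0 < W.trace.re := by
    rw [hW, H897.trace_preserving hTd hTu]
    exact hV0
  have hN : H116.Noise (noi (ι := ι) T) := noise hTf hTd hTu
  have hst : ∀ S : Finset ι, ∃ Z : Matrix (ι → A × B) (ι → A × B) ℂ, Z.IsHermitian ∧
      (fromBlocks (noi T (pm (act W S) (ot a₀ b₀))) Z Z
        (noi T (pm (act W S) (ot a₁ b₁)))).PosSemidef ∧
      ∀ μ : ℝ, 4 * μ * (pm (act W S) C).trace.re - 2 * μ ^ 2 *
        ((pm (act W S) (ot a₀ b₀)).trace.re + (pm (act W S) (ot a₁ b₁)).trace.re) ≤ Z.trace.re := by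
    intro S
    refine H116.corner_mu hN (act_posDef hWp hW0 S hX) ?_
    have := pm_blocks (act_cp hWp S) hC
    rwa [← pm_conjTranspose (act_cp hWp S)] at this
  choose Z hZh hZb hZt using hst
  have hkey := key (ι := ι) hv hV hV' (H116.pd_of_noise (noise hf hd hu) ha₀)
    (H116.pd_of_noise (noise hf hd hu) ha₁) (H116.pd_of_noise (noise hf' hd' hu') hb₀)
    (H116.pd_of_noise (noise hf' hd' hu') hb₁) Z hZh (fun S => by
      rw [← noi_ot, ← noi_ot, act_fl hTd hTu, act_fl hTd hTu]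
      exact hZb S)
  rw [← noi_ot, ← noi_ot, pair_noi hTd, pair_noi hTd] at hkey
  have hwt : ∀ S : Finset ι, 0 ≤ wt v S := by
    intro S
    refine Finset.prod_nonneg fun i _ => ?_
    split
    · exact zero_le_one
    · exact hv
  have hsum : ∑ S : Finset ι, wt v S * (4 * μ * (pm (act W S) C).trace.re - 2 * μ ^ 2 *
        ((pm (act W S) (ot a₀ b₀)).trace.re + (pm (act W S) (ot a₁ b₁)).trace.re)) ≤
      ∑ S : Finset ι, wt v S * (Z S).trace.re :=
    Finset.sum_le_sum fun S _ => mul_le_mul_of_nonneg_left (hZt S μ) (hwt S)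
  have e1 : ∑ S : Finset ι, wt v S * (4 * μ * (pm (act W S) C).trace.re - 2 * μ ^ 2 *
        ((pm (act W S) (ot a₀ b₀)).trace.re + (pm (act W S) (ot a₁ b₁)).trace.re)) =
      4 * μ * ∑ S : Finset ι, wt v S * (pm (act W S) C).trace.re - 2 * μ ^ 2 *
        (∑ S : Finset ι, wt v S * (pm (act W S) (ot a₀ b₀)).trace.re +
          ∑ S : Finset ι, wt v S * (pm (act W S) (ot a₁ b₁)).trace.re) := by
    rw [Finset.mul_sum, ← Finset.sum_add_distrib, Finset.mul_sum, ← Finset.sum_sub_distrib]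
    exact Finset.sum_congr rfl fun S _ => by ring
  rw [e1, sum_wt_act, sum_wt_act, sum_wt_act, ← hR] at hsum
  linarith

/-- **The corner inequality** for `tpow`. -/
theorem cornerLin [Nonempty A] [Nonempty B] {t : H897.Ker A} {t' : H897.Ker B}
    (hf : H897.SF t) (hf' : H897.SF t') (hd : H897.SD t) (hd' : H897.SD t') (hu : H897.UN t)
    (hu' : H897.UN t') {v : ℝ} (hv : 0 ≤ v) {V : Matrix (A × B) (A × B) ℂ}
    (hV : V.PosSemidef) (hV' : ((v : ℂ) • 1 - V).PosSemidef) (hV0 : 0 < V.trace.re) (n : ℕ) :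
    H740.CornerLin (tpow n (H897.ap (H897.kt t t') (V + (v : ℂ) • 1))) := by
  intro a₀ a₁ b₀ b₁ C μ ha₀ ha₁ hb₀ hb₁ hC
  let e : (Fin n → A × B) ≃ (Fin n → A) × (Fin n → B) :=
    Equiv.arrowProdEquivProdArrow (Fin n) (fun _ => A) (fun _ => B)
  have ho : ∀ (a : Matrix (Fin n → A) (Fin n → A) ℂ) (b : Matrix (Fin n → B) (Fin n → B) ℂ),
      ot a b = (a ⊗ₖ b).submatrix e e := by
    intro a b
    ext i j
    rfl
  have hp : (pt (fun _ : Fin n => H897.ap (H897.kt t t') (V + (v : ℂ) • 1))) =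
      (tpow n (H897.ap (H897.kt t t') (V + (v : ℂ) • 1))).submatrix e e := by
    ext i j
    rfl
  have ht : ∀ Q X : Matrix ((Fin n → A) × (Fin n → B)) ((Fin n → A) × (Fin n → B)) ℂ,
      (Q.submatrix e e * X.submatrix e e).trace = (Q * X).trace := by
    intro Q X
    rw [Matrix.submatrix_mul_equiv, trace_submatrix_eq]
  have hX : (ot a₀ b₀).PosDef := by
    obtain ⟨g, hg, hg'⟩ := exists_gap (ha₀.kronecker hb₀)
    refine posDef_of_gap hg ?_
    have := hg'.submatrix e
    rw [ho]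
    have e1 : (a₀ ⊗ₖ b₀ - (g : ℂ) • (1 : Matrix ((Fin n → A) × (Fin n → B))
        ((Fin n → A) × (Fin n → B)) ℂ)).submatrix e e =
        (a₀ ⊗ₖ b₀).submatrix e e - (g : ℂ) • 1 := by
      ext i j
      simp only [Matrix.submatrix_apply, Matrix.sub_apply, Matrix.smul_apply, Matrix.one_apply,
        EmbeddingLike.apply_eq_iff_eq]
    rwa [e1] at this
  have hC' : (fromBlocks (ot a₀ b₀) (C.submatrix e e) (C.submatrix e e)ᴴ
      (ot a₁ b₁)).PosSemidef := by
    have := hC.submatrix (Sum.map e e)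
    have e1 : (fromBlocks (a₀ ⊗ₖ b₀) C Cᴴ (a₁ ⊗ₖ b₁)).submatrix (Sum.map e e) (Sum.map e e) =
        fromBlocks (ot a₀ b₀) (C.submatrix e e) (C.submatrix e e)ᴴ (ot a₁ b₁) := by
      ext (i | i) (j | j) <;> rfl
    rwa [e1] at this
  have h := corner_sites (ι := Fin n) hf hf' hd hd' hu hu' hv hV hV' hV0 ha₀.posSemidef
    ha₁.posSemidef hb₀.posSemidef hb₁.posSemidef hX hC' μ
  rw [hp, ho, ho, ho, ho, ht, ht, ht, ht, ht] at h
  exact h

end Vale.Agent.P372.H948
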