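import Vale.Agent.P372.H948.Asm
import Vale.Agent.P372.H507.Inst
import Vale.Agent.P372.FULL.Link

/-! An entangled state with distillable key zero. -/

open Matrix Kronecker
open scoped ComplexOrder

namespace Vale.Agent.P372.H948

theorem cw_eq {m : ℕ} (g : (Fin m → ZMod 2) × (Fin m → ZMod 2)) (j : Fin m) :
    Fm.cw g j = H897.wc g j := by
  unfold Fm.cw H897.wc
  congr 1
  rw [← Finset.sum_filter]
  refine Finset.sum_congr ?_ fun _ _ => rfl
  ext k
  simp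

theorem mu_eq {m : ℕ} (g : (Fin m → ZMod 2) × (Fin m → ZMod 2)) : Fm.mu g = H897.mu g := by
  unfold Fm.mu H897.mu
  simp only [cw_eq]
  rfl

theorem tk_eq (m : ℕ) (p q i j : Fin m → ZMod 2) : Fm.tk m p q i j = H897.tk m p q i j := by
  unfold Fm.tk H897.tk
  simp only [mu_eq]
  rfl

theorem ap_eq (m : ℕ) (Y : Matrix ((Fin m → ZMod 2) × (Fin m → ZMod 2))
    ((Fin m → ZMod 2) × (Fin m → ZMod 2)) ℂ) :
    Fm.ap (H507.kk m) Y = H897.ap (H897.kt (H897.tk m) (H897.tk m)) Y := by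
  ext i j
  refine Finset.sum_congr rfl fun p _ => Finset.sum_congr rfl fun q _ => ?_
  rw [mul_comm]
  congr 1
  show Fm.tk m p.1 q.1 i.1 j.1 * Fm.tk m p.2 q.2 i.2 j.2 = _
  rw [tk_eq, tk_eq]
  rfl

/-- the active part -/
noncomputable def opV : Matrix (Fm.V 3600 × Fm.V 3600) (Fm.V 3600 × Fm.V 3600) ℂ :=
  (1 / 3 : ℂ) • H507.opRh

theorem opV_psd : opV.PosSemidef :=
  H507.opRh_psd.smul (by rw [Complex.le_def]; norm_num)

theorem sub_opV_psd : ((((2 / 3 : ℝ) : ℝ) : ℂ) • (1 : Matrix (Fm.V 3600 × Fm.V 3600)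
    (Fm.V 3600 × Fm.V 3600) ℂ) - opV).PosSemidef := by
  have h : ((((2 / 3 : ℝ) : ℝ) : ℂ) • (1 : Matrix (Fm.V 3600 × Fm.V 3600)
      (Fm.V 3600 × Fm.V 3600) ℂ) - opV) =
      (1 / 3 : ℂ) • ((2 : ℂ) • (1 : Matrix (Fm.V 3600 × Fm.V 3600)
        (Fm.V 3600 × Fm.V 3600) ℂ) - H507.opRh) := by
    rw [smul_sub, smul_smul]
    unfold opV
    congr 2
    push_cast
    norm_num
  rw [h]
  exact H507.two_sub_opRh_psd.smul (by rw [Complex.le_def]; norm_num)

theorem third_cast (c : ℕ) : (1 / 3 : ℂ) * (c : ℂ) = ((1 / 3 * (c : ℝ) : ℝ) : ℂ) := by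
  push_cast
  ring

theorem opV_trace : 0 < opV.trace.re := by
  have h : opV.trace = ((1 / 3 * (Fintype.card (Fm.V 3600 × Fm.V 3600) : ℝ) : ℝ) : ℂ) := by
    unfold opV H507.opRh
    rw [Matrix.trace_smul, H507.Cl.trace_Rh _ ⟨1800, rfl⟩, smul_eq_mul, third_cast]
  rw [h, Complex.ofReal_re]
  have : (0 : ℝ) < (Fintype.card (Fm.V 3600 × Fm.V 3600) : ℝ) := Nat.cast_pos.mpr Fintype.card_pos
  exact mul_pos (by norm_num) this

theorem opR_eq : H507.opR =
    H897.ap (H897.kt (H897.tk 3600) (H897.tk 3600)) (opV + (((2 / 3 : ℝ) : ℝ) : ℂ) • 1) := by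
  unfold H507.opR
  rw [ap_eq]
  congr 1
  rw [add_comm]
  unfold opV
  congr 2
  push_cast
  rfl

theorem opR_psd : H507.opR.PosSemidef := by
  rw [opR_eq]
  refine H897.ap_psd (H897.SF_tk 3600 |>.kt (H897.SF_tk 3600)).choi (opV_psd.add ?_)
  refine Matrix.PosSemidef.one.smul ?_
  rw [Complex.le_def]
  norm_num

theorem tpow_psd {A B : Type} [Fintype A] [Fintype B] [DecidableEq A] [DecidableEq B]
    {R : Matrix (A × B) (A × B) ℂ} (hR : R.PosSemidef) (n : ℕ) : (tpow n R).PosSemidef := by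
  have h := (pt_psd (ι := Fin n) (V := fun _ => R) fun _ => hR).submatrix
    (Equiv.arrowProdEquivProdArrow (Fin n) (fun _ => A) (fun _ => B)).symm
  exact h

/-- **There is an entangled state from which no key can be distilled.** -/
theorem main : ∃ (a b : ℕ) (ρ : Matrix (Fin a × Fin b) (Fin a × Fin b) ℂ), ρ.PosSemidef ∧
    ρ.trace = 1 ∧ ¬ IsSep ρ ∧
    ∀ (E : Type) [Fintype E] [DecidableEq E] (Ψ : Matrix (Fin a × Fin b) E ℂ),
      Ψ * Ψᴴ = ρ → distillableKey Ψ = 0 := by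
  refine FULL.link H507.opR opR_psd H507.opR_not_isSep ?_
  refine H740.noTest_of_corner (tpow_psd opR_psd) ?_
  rw [opR_eq]
  exact cornerLin (H897.SF_tk 3600) (H897.SF_tk 3600) H897.SD_tk H897.SD_tk H897.UN_tk
    H897.UN_tk (by norm_num) opV_psd sub_opV_psd opV_trace

end Vale.Agent.P372.H948
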