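import Vale.Agent.P372.H948.Sites
import Vale.Agent.P372.Swap.Core

/-! The averaged inequality for Hermitian corners, in closed form. -/

open Matrix Kronecker
open scoped ComplexOrder MatrixOrder

namespace Vale.Agent.P372.H948

set_option linter.unusedSectionVars false

section kernels

variable {C : Type} [Fintype C] [DecidableEq C]

theorem comp_id (κ : Ker C) : comp κ idK = κ := by
  funext p q p' q'
  show ∑ a, ∑ b, κ p q a b * (if a = p' ∧ b = q' then 1 else 0) = _
  rw [Finset.sum_eq_single p']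
  · rw [Finset.sum_eq_single q']
    · simp
    · intro b _ hb
      rw [if_neg fun h => hb h.2, mul_zero]
    · intro h; exact absurd (Finset.mem_univ _) h
  · intro a _ ha
    refine Finset.sum_eq_zero fun b _ => ?_
    rw [if_neg fun h => ha h.1, mul_zero]
  · intro h; exact absurd (Finset.mem_univ _) h

theorem id_comp (κ : Ker C) : comp idK κ = κ := by
  funext p q p' q'
  show ∑ a, ∑ b, (if p = a ∧ q = b then 1 else 0) * κ a b p' q' = _
  rw [Finset.sum_eq_single p]
  · rw [Finset.sum_eq_single q]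
    · simp
    · intro b _ hb
      rw [if_neg fun h => hb h.2.symm, zero_mul]
    · intro h; exact absurd (Finset.mem_univ _) h
  · intro a _ ha
    refine Finset.sum_eq_zero fun b _ => ?_
    rw [if_neg fun h => ha h.1.symm, zero_mul]
  · intro h; exact absurd (Finset.mem_univ _) h

theorem zero_comp (κ : Ker C) : comp 0 κ = 0 := by
  funext p q p' q'
  show ∑ a, ∑ b, (0 : ℂ) * κ a b p' q' = 0
  simp

theorem trK_add (V W : Matrix C C ℂ) : trK V + trK W = trK (V + W) := by
  funext p q p' q'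
  show _ * V q' p' + _ * W q' p' = _ * (V q' p' + W q' p')
  rw [mul_add]

theorem dual_id (V : Matrix C C ℂ) : dual idK V = V := by
  ext q' p'
  show ∑ a, ∑ b, V b a * (if a = p' ∧ b = q' then 1 else 0) = _
  rw [Finset.sum_eq_single p']
  · rw [Finset.sum_eq_single q']
    · simp
    · intro b _ hb
      rw [if_neg fun h => hb h.2, mul_zero]
    · intro h; exact absurd (Finset.mem_univ _) h
  · intro a _ ha
    refine Finset.sum_eq_zero fun b _ => ?_
    rw [if_neg fun h => ha h.1, mul_zero]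
  · intro h; exact absurd (Finset.mem_univ _) h

theorem dual_zero (V : Matrix C C ℂ) : dual 0 V = 0 := by
  ext q' p'
  show ∑ a, ∑ b, V b a * (0 : ℂ) = 0
  simp

theorem dual_tr [Nonempty C] (W : Matrix C C ℂ) : dual (trK W) 1 = W := by
  ext q' p'
  show ∑ a, ∑ b, (1 : Matrix C C ℂ) b a *
    ((if a = b then ((Fintype.card C : ℂ))⁻¹ else 0) * W q' p') = _
  have h : ∀ a : C, ∑ b, (1 : Matrix C C ℂ) b a *
      ((if a = b then ((Fintype.card C : ℂ))⁻¹ else 0) * W q' p') =
      ((Fintype.card C : ℂ))⁻¹ * W q' p' := by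
    intro a
    rw [Finset.sum_eq_single a]
    · simp
    · intro b _ hb
      rw [Matrix.one_apply_ne hb, zero_mul]
    · intro h; exact absurd (Finset.mem_univ _) h
  simp only [h, Finset.sum_const, Finset.card_univ, nsmul_eq_mul]
  rw [← mul_assoc, mul_inv_cancel₀ (Nat.cast_ne_zero.mpr Fintype.card_ne_zero), one_mul]

end kernels

variable {ι : Type} [Fintype ι] [DecidableEq ι]
variable {A B : Type} [Fintype A] [DecidableEq A] [Fintype B] [DecidableEq B]

/-- product operator of Alice's and Bob's operators, sites together -/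
def ot (α : Matrix (ι → A) (ι → A) ℂ) (β : Matrix (ι → B) (ι → B) ℂ) :
    Matrix (ι → A × B) (ι → A × B) ℂ :=
  fun p q => α (fun i => (p i).1) (fun i => (q i).1) * β (fun i => (p i).2) (fun i => (q i).2)

theorem pm_ot {κ : ι → Ker (A × B)} {κA : ι → Ker A} {κB : ι → Ker B}
    (h : ∀ i p q p' q', κ i p q p' q' = κA i p.1 q.1 p'.1 q'.1 * κB i p.2 q.2 p'.2 q'.2)
    (α : Matrix (ι → A) (ι → A) ℂ) (β : Matrix (ι → B) (ι → B) ℂ) :
    pm κ (ot α β) = ot (pm κA α) (pm κB β) := by
  ext p q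
  show ∑ p' : ι → A × B, ∑ q' : ι → A × B, (∏ i, κ i (p i) (q i) (p' i) (q' i)) * ot α β p' q' = _
  have h1 : ∀ p' q' : ι → A × B, (∏ i, κ i (p i) (q i) (p' i) (q' i)) * ot α β p' q' =
      ((∏ i, κA i (p i).1 (q i).1 (p' i).1 (q' i).1) *
        α (fun i => (p' i).1) (fun i => (q' i).1)) *
      ((∏ i, κB i (p i).2 (q i).2 (p' i).2 (q' i).2) *
        β (fun i => (p' i).2) (fun i => (q' i).2)) := by
    intro p' q'
    simp only [h, Finset.prod_mul_distrib, ot]
    ring
  simp only [h1]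
  have h2 : ∀ p' : ι → A × B, ∑ q' : ι → A × B,
      ((∏ i, κA i (p i).1 (q i).1 (p' i).1 (q' i).1) *
        α (fun i => (p' i).1) (fun i => (q' i).1)) *
      ((∏ i, κB i (p i).2 (q i).2 (p' i).2 (q' i).2) *
        β (fun i => (p' i).2) (fun i => (q' i).2)) =
      (∑ x : ι → A, (∏ i, κA i (p i).1 (q i).1 (p' i).1 (x i)) * α (fun i => (p' i).1) x) *
      (∑ y : ι → B, (∏ i, κB i (p i).2 (q i).2 (p' i).2 (y i)) * β (fun i => (p' i).2) y) := by
    intro p'
    rw [Finset.sum_mul_sum]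
    exact sum_fun_prod (fun (x : ι → A) (y : ι → B) =>
      ((∏ i, κA i (p i).1 (q i).1 (p' i).1 (x i)) * α (fun i => (p' i).1) x) *
      ((∏ i, κB i (p i).2 (q i).2 (p' i).2 (y i)) * β (fun i => (p' i).2) y))
  simp only [h2]
  rw [sum_fun_prod (fun (a : ι → A) (b : ι → B) =>
      (∑ x : ι → A, (∏ i, κA i (p i).1 (q i).1 (a i) (x i)) * α a x) *
      (∑ y : ι → B, (∏ i, κB i (p i).2 (q i).2 (b i) (y i)) * β b y))]
  rw [← Finset.sum_mul_sum]
  rfl

theorem trace_submatrix_eq {X Y : Type} [Fintype X] [Fintype Y] (e : X ≃ Y)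
    (M : Matrix Y Y ℂ) : (M.submatrix e e).trace = M.trace :=
  Fintype.sum_equiv e _ _ fun _ => rfl

theorem core_sites {P₀ P₁ : Matrix (ι → A) (ι → A) ℂ} {Q₀ Q₁ : Matrix (ι → B) (ι → B) ℂ}
    {H : Matrix (ι → A × B) (ι → A × B) ℂ} (hP₀ : P₀.PosSemidef) (hP₁ : P₁.PosSemidef)
    (hQ₀ : Q₀.PosSemidef) (hQ₁ : Q₁.PosSemidef) (hH : H.IsHermitian)
    (h : (fromBlocks (ot P₁ Q₁) H H (ot P₀ Q₀)).PosSemidef)
    {M : Matrix (ι → A × B) (ι → A × B) ℂ} (hM : M.PosSemidef) :
    2 * (M * H).trace.re ≤ (M * ot P₁ Q₀).trace.re + (M * ot P₀ Q₁).trace.re := by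
  let e : (ι → A × B) ≃ (ι → A) × (ι → B) :=
    Equiv.arrowProdEquivProdArrow ι (fun _ => A) (fun _ => B)
  have key := Swap.core_lin hP₀ hP₁ hQ₀ hQ₁ (H := H.submatrix e.symm e.symm) (hH.submatrix _)
    (by
      have h' := h.submatrix (Sum.map e.symm e.symm)
      have e1 : (fromBlocks (ot P₁ Q₁) H H (ot P₀ Q₀)).submatrix (Sum.map e.symm e.symm)
          (Sum.map e.symm e.symm) = fromBlocks (P₁ ⊗ₖ Q₁) (H.submatrix e.symm e.symm)
          (H.submatrix e.symm e.symm) (P₀ ⊗ₖ Q₀) := by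
        ext (i | i) (j | j) <;> rfl
      rwa [e1] at h')
    (M := M.submatrix e.symm e.symm) (hM.submatrix _)
  have t : ∀ X : Matrix (ι → A × B) (ι → A × B) ℂ,
      (M.submatrix e.symm e.symm * X.submatrix e.symm e.symm).trace = (M * X).trace := by
    intro X
    rw [Matrix.submatrix_mul_equiv, trace_submatrix_eq]
  have k10 : P₁ ⊗ₖ Q₀ = (ot P₁ Q₀).submatrix e.symm e.symm := by
    ext i j; rfl
  have k01 : P₀ ⊗ₖ Q₁ = (ot P₀ Q₁).submatrix e.symm e.symm := by
    ext i j; rfl
  rw [k10, k01, t, t, t] at key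
  exact key

theorem blocks_sum {J X : Type} [Fintype X] [DecidableEq X] (s : Finset J)
    (a b c d : J → Matrix X X ℂ) :
    fromBlocks (∑ k ∈ s, a k) (∑ k ∈ s, b k) (∑ k ∈ s, c k) (∑ k ∈ s, d k) =
      ∑ k ∈ s, fromBlocks (a k) (b k) (c k) (d k) := by
  classical
  induction s using Finset.induction_on with
  | empty => simp
  | insert x s hx ih =>
    simp only [Finset.sum_insert hx]
    rw [← ih, fromBlocks_add]

/-- trace out (with weight `V`) the sites in `S` -/
noncomputable def act (V : Matrix (A × B) (A × B) ℂ) (S : Finset ι) : ι → Ker (A × B) :=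
  fun i => if i ∈ S then trK V else idK

theorem act_cp {V : Matrix (A × B) (A × B) ℂ} (hV : V.PosSemidef) (S : Finset ι) (i : ι) :
    IsCP (act V S i) := by
  unfold act
  split
  · exact isCP_tr hV
  · exact isCP_id

/-- the post-processing of the proof of `key` -/
noncomputable def mid (v : ℝ) (V : Matrix (A × B) (A × B) ℂ) (T S : Finset ι) :
    ι → Ker (A × B) :=
  fun i => if i ∈ S then (if i ∈ T then 0 else idK)
    else (if i ∈ T then idK else trK ((v : ℂ) • 1 - V))

/-- depolarise outside `T` -/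
noncomputable def dep (v : ℝ) (T : Finset ι) : ι → Ker (A × B) :=
  fun i => if i ∈ T then idK else trK ((v : ℂ) • 1)

theorem mid_cp {v : ℝ} {V : Matrix (A × B) (A × B) ℂ} (hV : (((v : ℂ)) • 1 - V).PosSemidef)
    (T S : Finset ι) (i : ι) : IsCP (mid v V T S i) := by
  unfold mid
  split
  · split
    · exact isCP_zero
    · exact isCP_id
  · split
    · exact isCP_id
    · exact isCP_tr hV

theorem sum_mid_act (v : ℝ) (V : Matrix (A × B) (A × B) ℂ) (T : Finset ι)
    (X : Matrix (ι → A × B) (ι → A × B) ℂ) :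
    ∑ S : Finset ι, pm (mid v V T S) (pm (act V S) X) = pm (dep v T) X := by
  have h1 : dep v T = fun i => (if i ∈ T then (0 : Ker (A × B)) else trK V) +
      (if i ∈ T then idK else trK (((v : ℂ)) • 1 - V)) := by
    funext i
    unfold dep
    by_cases hi : i ∈ T
    · simp only [if_pos hi, zero_add]
    · simp only [if_neg hi, trK_add]
      congr 1
      abel
  rw [h1, pm_expand]
  refine Finset.sum_congr rfl fun S _ => ?_
  rw [pm_comp]
  congr 1
  funext i
  unfold mid act
  by_cases hS : i ∈ S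
  · by_cases hT : i ∈ T
    · simp only [if_pos hS, if_pos hT, zero_comp]
    · simp only [if_pos hS, if_neg hT, id_comp]
  · by_cases hT : i ∈ T
    · simp only [if_neg hS, if_pos hT, comp_id]
    · simp only [if_neg hS, if_neg hT, comp_id]

theorem pm_dep_ot (v : ℝ) (T : Finset ι) (α : Matrix (ι → A) (ι → A) ℂ)
    (β : Matrix (ι → B) (ι → B) ℂ) :
    pm (dep v T) (ot α β) =
      ot (pm (fun i => if i ∈ T then idK else trK ((v : ℂ) • 1)) α)
        (pm (fun i => if i ∈ T then idK else trK 1) β) := by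
  apply pm_ot
  intro i p q p' q'
  unfold dep
  by_cases hT : i ∈ T
  · simp only [if_pos hT, idK]
    by_cases h1 : p.1 = p'.1 <;> by_cases h2 : p.2 = p'.2 <;> by_cases h3 : q.1 = q'.1 <;>
      by_cases h4 : q.2 = q'.2 <;> simp [Prod.ext_iff, h1, h2, h3, h4]
  · simp only [if_neg hT, trK, Matrix.smul_apply, Matrix.one_apply, Fintype.card_prod,
      Nat.cast_mul, mul_inv, smul_eq_mul]
    by_cases h1 : p.1 = q.1 <;> by_cases h2 : p.2 = q.2 <;> by_cases h3 : q'.1 = p'.1 <;>
      by_cases h4 : q'.2 = p'.2 <;> simp [Prod.ext_iff, h1, h2, h3, h4] <;> ring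

/-- weight of a pattern -/
noncomputable def wt (v : ℝ) (S : Finset ι) : ℝ := ∏ i : ι, if i ∈ S then 1 else v

theorem wt_cast (v : ℝ) (S : Finset ι) :
    ((wt v S : ℝ) : ℂ) = ∏ i : ι, (if i ∈ S then (1 : ℂ) else (v : ℂ)) := by
  unfold wt
  rw [Complex.ofReal_prod]
  refine Finset.prod_congr rfl fun i _ => ?_
  split <;> simp

theorem sum_sel_mid [Nonempty A] [Nonempty B] (v : ℝ) (V : Matrix (A × B) (A × B) ℂ)
    (S : Finset ι) (Z : Matrix (ι → A × B) (ι → A × B) ℂ) :
    ∑ T : Finset ι, (pt (fun i => if i ∈ T then V else 1) * pm (mid v V T S) Z).trace =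
      (wt v S : ℂ) * Z.trace := by
  have h1 : ∀ T : Finset ι, (pt (fun i => if i ∈ T then V else 1) * pm (mid v V T S) Z).trace =
      (pt (fun i => if i ∈ T then (if i ∈ S then 0 else V) else
        (if i ∈ S then 1 else (v : ℂ) • 1 - V)) * Z).trace := by
    intro T
    rw [pair_pm]
    congr 3
    funext i
    unfold mid
    by_cases hS : i ∈ S
    · by_cases hT : i ∈ T
      · simp only [if_pos hS, if_pos hT, dual_zero]
      · simp only [if_pos hS, if_neg hT, dual_id]
    · by_cases hT : i ∈ T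
      · simp only [if_neg hS, if_pos hT, dual_id]
      · simp only [if_neg hS, if_neg hT, dual_tr]
  simp only [h1]
  rw [← Matrix.trace_sum, ← Finset.sum_mul, ← pt_expand (fun i => if i ∈ S then 0 else V)
    (fun i => if i ∈ S then 1 else (v : ℂ) • 1 - V)]
  have h2 : (fun i => (if i ∈ S then (0 : Matrix (A × B) (A × B) ℂ) else V) +
      (if i ∈ S then 1 else (v : ℂ) • 1 - V)) =
      fun i => (if i ∈ S then (1 : ℂ) else (v : ℂ)) • (1 : Matrix (A × B) (A × B) ℂ) := by
    funext i
    by_cases hS : i ∈ S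
    · simp only [if_pos hS, zero_add, one_smul]
    · simp only [if_neg hS]
      abel
  rw [h2, pt_smul, pt_one, Matrix.smul_mul, Matrix.one_mul, Matrix.trace_smul, smul_eq_mul,
    wt_cast]

theorem sum_sel_dep [Nonempty A] [Nonempty B] (v : ℝ) (V : Matrix (A × B) (A × B) ℂ)
    (X : Matrix (ι → A × B) (ι → A × B) ℂ) :
    ∑ T : Finset ι, (pt (fun i => if i ∈ T then V else 1) * pm (dep v T) X).trace =
      (pt (fun _ => V + (v : ℂ) • 1) * X).trace := by
  have h1 : ∀ T : Finset ι, (pt (fun i => if i ∈ T then V else 1) * pm (dep v T) X).trace =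
      (pt (fun i => if i ∈ T then V else (v : ℂ) • 1) * X).trace := by
    intro T
    rw [pair_pm]
    congr 3
    funext i
    unfold dep
    by_cases hT : i ∈ T
    · simp only [if_pos hT, dual_id]
    · simp only [if_neg hT, dual_tr]
  simp only [h1]
  rw [← Matrix.trace_sum, ← Finset.sum_mul, ← pt_expand (fun _ => V) (fun _ => (v : ℂ) • 1)]

/-- **KEY**, linear form -/
theorem key [Nonempty A] [Nonempty B] {v : ℝ} (hv : 0 ≤ v) {V : Matrix (A × B) (A × B) ℂ}
    (hV : V.PosSemidef) (hV' : ((v : ℂ) • 1 - V).PosSemidef)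
    {α₀ α₁ : Matrix (ι → A) (ι → A) ℂ} {β₀ β₁ : Matrix (ι → B) (ι → B) ℂ}
    (hα₀ : α₀.PosSemidef) (hα₁ : α₁.PosSemidef) (hβ₀ : β₀.PosSemidef) (hβ₁ : β₁.PosSemidef)
    (Z : Finset ι → Matrix (ι → A × B) (ι → A × B) ℂ) (hZ : ∀ S, (Z S).IsHermitian)
    (hb : ∀ S, (fromBlocks (pm (act V S) (ot α₀ β₀)) (Z S) (Z S)
      (pm (act V S) (ot α₁ β₁))).PosSemidef) :
    2 * ∑ S : Finset ι, wt v S * (Z S).trace.re ≤
      (pt (fun _ => V + (v : ℂ) • 1) * ot α₀ β₁).trace.re +
        (pt (fun _ => V + (v : ℂ) • 1) * ot α₁ β₀).trace.re := by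
  classical
  let Y : Finset ι → Matrix (ι → A × B) (ι → A × B) ℂ := fun T =>
    ∑ S : Finset ι, pm (mid v V T S) (Z S)
  have hYh : ∀ T, (Y T).IsHermitian := by
    intro T
    show (∑ S : Finset ι, pm (mid v V T S) (Z S))ᴴ = _
    rw [Matrix.conjTranspose_sum]
    refine Finset.sum_congr rfl fun S _ => ?_
    rw [pm_conjTranspose (mid_cp hV' T S), hZ S]
  have hYb : ∀ T, (fromBlocks (pm (dep v T) (ot α₀ β₀)) (Y T) (Y T)
      (pm (dep v T) (ot α₁ β₁))).PosSemidef := by
    intro T
    rw [← sum_mid_act v V T (ot α₀ β₀), ← sum_mid_act v V T (ot α₁ β₁)]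
    show (fromBlocks _ (∑ S : Finset ι, pm (mid v V T S) (Z S))
      (∑ S : Finset ι, pm (mid v V T S) (Z S)) _).PosSemidef
    rw [blocks_sum]
    exact Matrix.posSemidef_sum _ fun S _ => pm_blocks (mid_cp hV' T S) (hb S)
  have hv1 : ((v : ℂ) • (1 : Matrix A A ℂ)).PosSemidef :=
    Matrix.PosSemidef.one.smul (by exact_mod_cast hv)
  have hcore : ∀ T : Finset ι,
      2 * (pt (fun i => if i ∈ T then V else 1) * Y T).trace.re ≤
      (pt (fun i => if i ∈ T then V else 1) * pm (dep v T) (ot α₀ β₁)).trace.re +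
      (pt (fun i => if i ∈ T then V else 1) * pm (dep v T) (ot α₁ β₀)).trace.re := by
    intro T
    have cpA : ∀ i : ι, IsCP (if i ∈ T then idK else trK ((v : ℂ) • (1 : Matrix A A ℂ))) := by
      intro i
      split
      · exact isCP_id
      · exact isCP_tr hv1
    have cpB : ∀ i : ι, IsCP (if i ∈ T then idK else trK (1 : Matrix B B ℂ)) := by
      intro i
      split
      · exact isCP_id
      · exact isCP_tr Matrix.PosSemidef.one
    have hM : (pt (fun i : ι => if i ∈ T then V else 1)).PosSemidef := by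
      refine pt_psd fun i => ?_
      split
      · exact hV
      · exact Matrix.PosSemidef.one
    have hb' := hYb T
    rw [pm_dep_ot, pm_dep_ot] at hb'
    rw [pm_dep_ot, pm_dep_ot]
    exact core_sites (pm_psd cpA hα₁) (pm_psd cpA hα₀) (pm_psd cpB hβ₁) (pm_psd cpB hβ₀)
      (hYh T) hb' hM
  have hsum := Finset.sum_le_sum fun T (_ : T ∈ (Finset.univ : Finset (Finset ι))) => hcore T
  rw [← Finset.mul_sum, Finset.sum_add_distrib] at hsum
  have e1 : ∑ T : Finset ι, (pt (fun i => if i ∈ T then V else 1) * Y T).trace.re =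
      ∑ S : Finset ι, wt v S * (Z S).trace.re := by
    have e2 : ∑ T : Finset ι, (pt (fun i => if i ∈ T then V else 1) * Y T).trace =
        ∑ S : Finset ι, (wt v S : ℂ) * (Z S).trace := by
      have e3 : ∀ T : Finset ι, (pt (fun i => if i ∈ T then V else 1) * Y T).trace =
          ∑ S : Finset ι, (pt (fun i => if i ∈ T then V else 1) * pm (mid v V T S) (Z S)).trace := by
        intro T
        show (pt (fun i => if i ∈ T then V else 1) * ∑ S : Finset ι, pm (mid v V T S) (Z S)).trace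
          = _
        rw [Finset.mul_sum, Matrix.trace_sum]
      simp only [e3]
      rw [Finset.sum_comm]
      exact Finset.sum_congr rfl fun S _ => sum_sel_mid v V S (Z S)
    rw [← Complex.re_sum, e2, Complex.re_sum]
    refine Finset.sum_congr rfl fun S _ => ?_
    rw [Complex.re_ofReal_mul]
  have e4 : ∀ X : Matrix (ι → A × B) (ι → A × B) ℂ,
      ∑ T : Finset ι, (pt (fun i => if i ∈ T then V else 1) * pm (dep v T) X).trace.re =
      (pt (fun _ => V + (v : ℂ) • 1) * X).trace.re := by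
    intro X
    rw [← Complex.re_sum, sum_sel_dep]
  rw [e1, e4, e4] at hsum
  exact hsum

end Vale.Agent.P372.H948
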