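import Vale.Agent.P372.TestDefs

/-! Product superoperators on many sites, given by entry kernels. -/

open Matrix Kronecker
open scoped ComplexOrder MatrixOrder

namespace Vale.Agent.P372.H948

set_option linter.unusedSectionVars false

variable {ι : Type} [Fintype ι] [DecidableEq ι]
variable {C : Type} [Fintype C] [DecidableEq C]

/-- entry kernels of superoperators of one site: `(κ X) p q = ∑ p' q', κ p q p' q' * X p' q'` -/
abbrev Ker (C : Type) := C → C → C → C → ℂ

/-- tensor product of a family of matrices -/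
def pt (V : ι → Matrix C C ℂ) : Matrix (ι → C) (ι → C) ℂ := fun p q => ∏ i, V i (p i) (q i)

/-- the product superoperator -/
def pm (κ : ι → Ker C) (Z : Matrix (ι → C) (ι → C) ℂ) : Matrix (ι → C) (ι → C) ℂ :=
  fun p q => ∑ p', ∑ q', (∏ i, κ i (p i) (q i) (p' i) (q' i)) * Z p' q'

/-- the identity -/
def idK : Ker C := fun p q p' q' => if p = p' ∧ q = q' then 1 else 0

/-- `X ↦ tr (V X) 1 / D` -/
noncomputable def trK (V : Matrix C C ℂ) : Ker C :=
  fun p q p' q' => (if p = q then ((Fintype.card C : ℂ))⁻¹ else 0) * V q' p'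

/-- composition -/
def comp (κ l : Ker C) : Ker C := fun p q p' q' => ∑ a, ∑ b, κ p q a b * l a b p' q'

/-- dual superoperator for the pairing `tr (V X)` -/
def dual (κ : Ker C) (V : Matrix C C ℂ) : Matrix C C ℂ :=
  fun q' p' => ∑ p, ∑ q, V q p * κ p q p' q'

/-- completely positive, Kraus form -/
def IsCP (κ : Ker C) : Prop :=
  ∃ (r : Type) (_ : Fintype r) (K : r → Matrix C C ℂ),
    ∀ p q p' q', κ p q p' q' = ∑ k, K k p p' * star (K k q q')

theorem psd_sq {E : Type} [Fintype E] [DecidableEq E] {X : Matrix E E ℂ} (h : X.PosSemidef) :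
    ∃ B : Matrix E E ℂ, X = Bᴴ * B := by
  obtain ⟨B, hB⟩ := CStarAlgebra.nonneg_iff_eq_star_mul_self.mp h.nonneg
  exact ⟨B, by rw [hB, star_eq_conjTranspose]⟩

theorem sum_fun_prod {E F : Type} [Fintype E] [Fintype F] (f : (ι → E) → (ι → F) → ℂ) :
    ∑ a : ι → E × F, f (fun i => (a i).1) (fun i => (a i).2) = ∑ x, ∑ y, f x y := by
  rw [← Fintype.sum_prod_type' (fun x y => f x y)]
  exact Fintype.sum_equiv (Equiv.arrowProdEquivProdArrow ι (fun _ => E) (fun _ => F)) _ _
    (fun a => rfl)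

theorem prod_sum_sum {E F : Type} [Fintype E] [Fintype F] [DecidableEq E] [DecidableEq F]
    (f : ι → E → F → ℂ) :
    ∏ i, ∑ a, ∑ b, f i a b = ∑ x : ι → E, ∑ y : ι → F, ∏ i, f i (x i) (y i) := by
  rw [← sum_fun_prod (fun x y => ∏ i, f i (x i) (y i))]
  have h : ∀ i, ∑ a, ∑ b, f i a b = ∑ c : E × F, f i c.1 c.2 := fun i => by
    rw [Fintype.sum_prod_type]
  simp only [h]
  rw [Finset.prod_univ_sum, Fintype.piFinset_univ]

theorem sum4_comm {X : Type} [Fintype X] (F : X → X → X → X → ℂ) :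
    ∑ x, ∑ y, ∑ p, ∑ q, F x y p q = ∑ p, ∑ q, ∑ x, ∑ y, F x y p q :=
  calc ∑ x, ∑ y, ∑ p, ∑ q, F x y p q
      = ∑ x, ∑ p, ∑ y, ∑ q, F x y p q :=
        Finset.sum_congr rfl fun _ _ => Finset.sum_comm
    _ = ∑ p, ∑ x, ∑ y, ∑ q, F x y p q := Finset.sum_comm
    _ = ∑ p, ∑ x, ∑ q, ∑ y, F x y p q :=
        Finset.sum_congr rfl fun _ _ => Finset.sum_congr rfl fun _ _ => Finset.sum_comm
    _ = ∑ p, ∑ q, ∑ x, ∑ y, F x y p q :=
        Finset.sum_congr rfl fun _ _ => Finset.sum_comm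

theorem prod_comp (κ l : ι → Ker C) (p q p' q' : ι → C) :
    ∏ i, comp (κ i) (l i) (p i) (q i) (p' i) (q' i) =
      ∑ x : ι → C, ∑ y : ι → C, (∏ i, κ i (p i) (q i) (x i) (y i)) *
        ∏ i, l i (x i) (y i) (p' i) (q' i) := by
  unfold comp
  rw [prod_sum_sum (fun i a b => κ i (p i) (q i) a b * l i a b (p' i) (q' i))]
  refine Finset.sum_congr rfl fun x _ => Finset.sum_congr rfl fun y _ => ?_
  rw [Finset.prod_mul_distrib]

theorem pm_comp (κ l : ι → Ker C) (Z : Matrix (ι → C) (ι → C) ℂ) :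
    pm κ (pm l Z) = pm (fun i => comp (κ i) (l i)) Z := by
  ext p q
  have hl : pm κ (pm l Z) p q =
      ∑ x : ι → C, ∑ y : ι → C, ∑ p' : ι → C, ∑ q' : ι → C,
      (∏ i, κ i (p i) (q i) (x i) (y i)) * ((∏ i, l i (x i) (y i) (p' i) (q' i)) * Z p' q') := by
    show ∑ x : ι → C, ∑ y : ι → C, (∏ i, κ i (p i) (q i) (x i) (y i)) *
      (∑ p' : ι → C, ∑ q' : ι → C, (∏ i, l i (x i) (y i) (p' i) (q' i)) * Z p' q') = _
    refine Finset.sum_congr rfl fun x _ => Finset.sum_congr rfl fun y _ => ?_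
    rw [Finset.mul_sum]
    exact Finset.sum_congr rfl fun p' _ => by rw [Finset.mul_sum]
  have hr : pm (fun i => comp (κ i) (l i)) Z p q =
      ∑ p' : ι → C, ∑ q' : ι → C, ∑ x : ι → C, ∑ y : ι → C,
      (∏ i, κ i (p i) (q i) (x i) (y i)) * ((∏ i, l i (x i) (y i) (p' i) (q' i)) * Z p' q') := by
    show ∑ p' : ι → C, ∑ q' : ι → C, (∏ i, comp (κ i) (l i) (p i) (q i) (p' i) (q' i)) * Z p' q' = _
    refine Finset.sum_congr rfl fun p' _ => Finset.sum_congr rfl fun q' _ => ?_
    rw [prod_comp, Finset.sum_mul]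
    refine Finset.sum_congr rfl fun x _ => ?_
    rw [Finset.sum_mul]
    exact Finset.sum_congr rfl fun y _ => by rw [mul_assoc]
  rw [hl, hr, sum4_comm]

theorem prod_expand (f g : ι → ℂ) :
    ∏ i, (f i + g i) = ∑ S : Finset ι, ∏ i, (if i ∈ S then f i else g i) := by
  rw [Finset.prod_add, Finset.powerset_univ]
  refine Finset.sum_congr rfl fun S _ => ?_
  rw [Finset.prod_ite]
  congr 1
  · exact Finset.prod_congr (by ext i; simp) fun _ _ => rfl
  · exact Finset.prod_congr (by ext i; simp) fun _ _ => rfl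

theorem pm_expand (κ l : ι → Ker C) (Z : Matrix (ι → C) (ι → C) ℂ) :
    pm (fun i => κ i + l i) Z = ∑ S : Finset ι, pm (fun i => if i ∈ S then κ i else l i) Z := by
  ext p q
  rw [Matrix.sum_apply]
  have hl : pm (fun i => κ i + l i) Z p q = ∑ p', ∑ q', ∑ S : Finset ι,
      (∏ i, (if i ∈ S then κ i (p i) (q i) (p' i) (q' i) else l i (p i) (q i) (p' i) (q' i))) *
        Z p' q' := by
    refine Finset.sum_congr rfl fun p' _ => Finset.sum_congr rfl fun q' _ => ?_
    rw [← Finset.sum_mul, ← prod_expand]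
    rfl
  have hr : ∀ S : Finset ι, pm (fun i => if i ∈ S then κ i else l i) Z p q = ∑ p', ∑ q',
      (∏ i, (if i ∈ S then κ i (p i) (q i) (p' i) (q' i) else l i (p i) (q i) (p' i) (q' i))) *
        Z p' q' := by
    intro S
    refine Finset.sum_congr rfl fun p' _ => Finset.sum_congr rfl fun q' _ => ?_
    congr 1
    refine Finset.prod_congr rfl fun i _ => ?_
    by_cases hi : i ∈ S
    · simp only [if_pos hi]
    · simp only [if_neg hi]
  simp only [hr]
  rw [hl, Finset.sum_comm]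
  refine (Finset.sum_congr rfl fun p' _ => Finset.sum_comm).trans ?_
  rw [Finset.sum_comm]
  refine Finset.sum_congr rfl fun S _ => ?_
  rw [Finset.sum_comm]

theorem pt_expand (V W : ι → Matrix C C ℂ) :
    pt (fun i => V i + W i) = ∑ S : Finset ι, pt (fun i => if i ∈ S then V i else W i) := by
  ext p q
  simp only [pt, Matrix.sum_apply, Matrix.add_apply, prod_expand]
  refine Finset.sum_congr rfl fun S _ => Finset.prod_congr rfl fun i _ => ?_
  by_cases hi : i ∈ S
  · simp only [if_pos hi]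
  · simp only [if_neg hi]

theorem trace_pt_mul (V : ι → Matrix C C ℂ) (Z : Matrix (ι → C) (ι → C) ℂ) :
    (pt V * Z).trace = ∑ p : ι → C, ∑ q : ι → C, (∏ i, V i (q i) (p i)) * Z p q := by
  rw [Matrix.trace_mul_comm]
  simp only [Matrix.trace, Matrix.diag_apply, Matrix.mul_apply, pt]
  exact Finset.sum_congr rfl fun p _ => Finset.sum_congr rfl fun q _ => mul_comm _ _

theorem prod_dual (κ : ι → Ker C) (V : ι → Matrix C C ℂ) (q' p' : ι → C) :
    ∏ i, dual (κ i) (V i) (q' i) (p' i) =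
      ∑ p : ι → C, ∑ q : ι → C, (∏ i, V i (q i) (p i)) *
        ∏ i, κ i (p i) (q i) (p' i) (q' i) := by
  unfold dual
  rw [prod_sum_sum (fun i a b => V i b a * κ i a b (p' i) (q' i))]
  refine Finset.sum_congr rfl fun x _ => Finset.sum_congr rfl fun y _ => ?_
  rw [Finset.prod_mul_distrib]

theorem pair_pm (V : ι → Matrix C C ℂ) (κ : ι → Ker C) (Z : Matrix (ι → C) (ι → C) ℂ) :
    (pt V * pm κ Z).trace = (pt (fun i => dual (κ i) (V i)) * Z).trace := by
  rw [trace_pt_mul, trace_pt_mul]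
  have hl : ∑ p : ι → C, ∑ q : ι → C, (∏ i, V i (q i) (p i)) * pm κ Z p q =
      ∑ p : ι → C, ∑ q : ι → C, ∑ p' : ι → C, ∑ q' : ι → C,
      (∏ i, V i (q i) (p i)) * ((∏ i, κ i (p i) (q i) (p' i) (q' i)) * Z p' q') := by
    refine Finset.sum_congr rfl fun x _ => Finset.sum_congr rfl fun y _ => ?_
    show _ * (∑ p', ∑ q', _) = _
    rw [Finset.mul_sum]
    exact Finset.sum_congr rfl fun p' _ => by rw [Finset.mul_sum]
  have hr : ∑ p' : ι → C, ∑ q' : ι → C, (∏ i, dual (κ i) (V i) (q' i) (p' i)) * Z p' q' =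
      ∑ p' : ι → C, ∑ q' : ι → C, ∑ p : ι → C, ∑ q : ι → C,
      (∏ i, V i (q i) (p i)) * ((∏ i, κ i (p i) (q i) (p' i) (q' i)) * Z p' q') := by
    refine Finset.sum_congr rfl fun p' _ => Finset.sum_congr rfl fun q' _ => ?_
    rw [prod_dual, Finset.sum_mul]
    refine Finset.sum_congr rfl fun x _ => ?_
    rw [Finset.sum_mul]
    exact Finset.sum_congr rfl fun y _ => by rw [mul_assoc]
  rw [hl, hr, sum4_comm]

theorem pm_kraus {r : ι → Type} [∀ i, Fintype (r i)] (κ : ι → Ker C)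
    (K : ∀ i, r i → Matrix C C ℂ)
    (h : ∀ i p q p' q', κ i p q p' q' = ∑ k, K i k p p' * star (K i k q q'))
    (Z : Matrix (ι → C) (ι → C) ℂ) :
    pm κ Z = ∑ k : ∀ i, r i, pt (fun i => K i (k i)) * Z * (pt (fun i => K i (k i)))ᴴ := by
  ext p q
  rw [Matrix.sum_apply]
  have hk : ∀ k : ∀ i, r i, (pt (fun i => K i (k i)) * Z * (pt (fun i => K i (k i)))ᴴ) p q =
      ∑ p', ∑ q', ((∏ i, K i (k i) (p i) (p' i)) * ∏ i, star (K i (k i) (q i) (q' i))) *
        Z p' q' := by
    intro k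
    rw [Matrix.mul_apply]
    simp only [Matrix.mul_apply, Finset.sum_mul, Matrix.conjTranspose_apply, pt]
    rw [Finset.sum_comm]
    refine Finset.sum_congr rfl fun p' _ => Finset.sum_congr rfl fun q' _ => ?_
    rw [star_prod]
    ring
  have hl : pm κ Z p q = ∑ p', ∑ q', ∑ k : ∀ i, r i,
      ((∏ i, K i (k i) (p i) (p' i)) * ∏ i, star (K i (k i) (q i) (q' i))) * Z p' q' := by
    refine Finset.sum_congr rfl fun p' _ => Finset.sum_congr rfl fun q' _ => ?_
    rw [← Finset.sum_mul]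
    congr 1
    simp only [h]
    rw [Finset.prod_univ_sum, Fintype.piFinset_univ]
    exact Finset.sum_congr rfl fun k _ => Finset.prod_mul_distrib
  simp only [hk]
  rw [hl]
  refine (Finset.sum_congr rfl fun p' _ => Finset.sum_comm).trans ?_
  rw [Finset.sum_comm]

/-! linearity -/

theorem pm_add (κ : ι → Ker C) (X Y : Matrix (ι → C) (ι → C) ℂ) :
    pm κ (X + Y) = pm κ X + pm κ Y := by
  ext p q
  simp only [pm, Matrix.add_apply, mul_add, Finset.sum_add_distrib]

theorem pm_smul (κ : ι → Ker C) (c : ℂ) (X : Matrix (ι → C) (ι → C) ℂ) :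
    pm κ (c • X) = c • pm κ X := by
  ext p q
  simp only [pm, Matrix.smul_apply, smul_eq_mul, Finset.mul_sum]
  exact Finset.sum_congr rfl fun p' _ => Finset.sum_congr rfl fun q' _ => by ring

theorem pm_sub (κ : ι → Ker C) (X Y : Matrix (ι → C) (ι → C) ℂ) :
    pm κ (X - Y) = pm κ X - pm κ Y := by
  ext p q
  simp only [pm, Matrix.sub_apply, mul_sub, Finset.sum_sub_distrib]

theorem pm_sum {J : Type} (s : Finset J) (κ : ι → Ker C) (X : J → Matrix (ι → C) (ι → C) ℂ) :
    pm κ (∑ j ∈ s, X j) = ∑ j ∈ s, pm κ (X j) := by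
  classical
  induction s using Finset.induction_on with
  | empty => ext p q; simp [pm]
  | insert a s ha ih => rw [Finset.sum_insert ha, Finset.sum_insert ha, pm_add, ih]

/-! blocks -/

/-- both corners are moved by the same completely positive map -/
theorem pm_blocks {κ : ι → Ker C} (hκ : ∀ i, IsCP (κ i)) {X Z W Y : Matrix (ι → C) (ι → C) ℂ}
    (h : (fromBlocks X Z W Y).PosSemidef) :
    (fromBlocks (pm κ X) (pm κ Z) (pm κ W) (pm κ Y)).PosSemidef := by
  choose r inst K hK using hκ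
  have e : fromBlocks (pm κ X) (pm κ Z) (pm κ W) (pm κ Y) = ∑ k : ∀ i, r i,
      fromBlocks (pt (fun i => K i (k i))) 0 0 (pt (fun i => K i (k i))) * fromBlocks X Z W Y *
        (fromBlocks (pt (fun i => K i (k i))) 0 0 (pt (fun i => K i (k i))))ᴴ := by
    have h1 : ∀ k : ∀ i, r i,
        fromBlocks (pt (fun i => K i (k i))) 0 0 (pt (fun i => K i (k i))) * fromBlocks X Z W Y *
        (fromBlocks (pt (fun i => K i (k i))) 0 0 (pt (fun i => K i (k i))))ᴴ =
        fromBlocks (pt (fun i => K i (k i)) * X * (pt (fun i => K i (k i)))ᴴ)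
          (pt (fun i => K i (k i)) * Z * (pt (fun i => K i (k i)))ᴴ)
          (pt (fun i => K i (k i)) * W * (pt (fun i => K i (k i)))ᴴ)
          (pt (fun i => K i (k i)) * Y * (pt (fun i => K i (k i)))ᴴ) := by
      intro k
      simp [fromBlocks_multiply, fromBlocks_conjTranspose]
    simp only [h1]
    have h2 : ∀ (s : Finset (∀ i, r i)) (a b c d : (∀ i, r i) → Matrix (ι → C) (ι → C) ℂ),
        fromBlocks (∑ k ∈ s, a k) (∑ k ∈ s, b k) (∑ k ∈ s, c k) (∑ k ∈ s, d k) =
          ∑ k ∈ s, fromBlocks (a k) (b k) (c k) (d k) := by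
      intro s a b c d
      classical
      induction s using Finset.induction_on with
      | empty => simp
      | insert x s hx ih =>
        simp only [Finset.sum_insert hx]
        rw [← ih, fromBlocks_add]
    rw [← h2, pm_kraus κ K hK X, pm_kraus κ K hK Z, pm_kraus κ K hK W, pm_kraus κ K hK Y]
  rw [e]
  exact Matrix.posSemidef_sum _ fun k _ => h.mul_mul_conjTranspose_same _

theorem pm_psd {κ : ι → Ker C} (hκ : ∀ i, IsCP (κ i)) {X : Matrix (ι → C) (ι → C) ℂ}
    (h : X.PosSemidef) : (pm κ X).PosSemidef := by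
  choose r inst K hK using hκ
  rw [pm_kraus κ K hK X]
  exact Matrix.posSemidef_sum _ fun k _ => h.mul_mul_conjTranspose_same _

theorem pm_conjTranspose {κ : ι → Ker C} (hκ : ∀ i, IsCP (κ i)) (X : Matrix (ι → C) (ι → C) ℂ) :
    (pm κ X)ᴴ = pm κ Xᴴ := by
  choose r inst K hK using hκ
  rw [pm_kraus κ K hK X, pm_kraus κ K hK Xᴴ, Matrix.conjTranspose_sum]
  refine Finset.sum_congr rfl fun k _ => ?_
  rw [Matrix.conjTranspose_mul, Matrix.conjTranspose_mul, Matrix.conjTranspose_conjTranspose,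
    Matrix.mul_assoc]

/-! complete positivity of the kernels -/

theorem isCP_zero : IsCP (0 : Ker C) :=
  ⟨Empty, inferInstance, fun _ => 0, fun p q p' q' => by simp⟩

theorem isCP_id : IsCP (idK : Ker C) := by
  refine ⟨Unit, inferInstance, fun _ => 1, fun p q p' q' => ?_⟩
  simp only [Finset.univ_unique, Finset.sum_singleton, Matrix.one_apply, idK]
  by_cases h1 : p = p' <;> by_cases h2 : q = q' <;> simp [h1, h2]

theorem isCP_tr {V : Matrix C C ℂ} (hV : V.PosSemidef) : IsCP (trK V) := by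
  obtain ⟨B, hB⟩ := psd_sq hV
  have hD : ∃ s : ℝ, (s : ℂ) * (s : ℂ) = ((Fintype.card C : ℂ))⁻¹ := by
    refine ⟨√((Fintype.card C : ℝ))⁻¹, ?_⟩
    rw [← Complex.ofReal_mul, Real.mul_self_sqrt (by positivity)]
    push_cast
    rfl
  obtain ⟨s, hs⟩ := hD
  refine ⟨C × C, inferInstance, fun k => fun p p' => (if p = k.1 then (s : ℂ) else 0) * B k.2 p',
    fun p q p' q' => ?_⟩
  rw [Fintype.sum_prod_type]
  have h1 : ∀ c m : C, (if p = c then (s : ℂ) else 0) * B m p' *
      star ((if q = c then (s : ℂ) else 0) * B m q') =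
      (if p = c then (if q = c then ((Fintype.card C : ℂ))⁻¹ else 0) else 0) *
        (star (B m q') * B m p') := by
    intro c m
    by_cases hp : p = c
    · by_cases hq : q = c
      · simp only [if_pos hp, if_pos hq, ← hs, star_mul']
        simp only [RCLike.star_def, Complex.conj_ofReal]
        ring
      · simp [hq]
    · simp [hp]
  simp only [h1]
  rw [show (∑ x : C, ∑ m : C, (if p = x then (if q = x then ((Fintype.card C : ℂ))⁻¹ else 0) else 0)
      * (star (B m q') * B m p')) = (∑ x : C, (if p = x then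
        (if q = x then ((Fintype.card C : ℂ))⁻¹ else 0) else 0)) * ∑ m : C,
          (star (B m q') * B m p') from by
    rw [Finset.sum_mul]
    exact Finset.sum_congr rfl fun x _ => by rw [Finset.mul_sum]]
  rw [Finset.sum_ite_eq]
  simp only [Finset.mem_univ, if_true]
  rw [trK, hB, Matrix.mul_apply]
  simp only [Matrix.conjTranspose_apply]
  congr 1
  by_cases h : p = q
  · simp [h]
  · rw [if_neg h, if_neg fun h' => h h'.symm]

/-! positivity of product matrices -/

theorem pt_psd {V : ι → Matrix C C ℂ} (hV : ∀ i, (V i).PosSemidef) : (pt V).PosSemidef := by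
  have h : ∀ i, ∃ B : Matrix C C ℂ, V i = Bᴴ * B := fun i =>
    psd_sq (hV i)
  choose B hB using h
  have e : pt V = (pt B)ᴴ * pt B := by
    ext p q
    rw [Matrix.mul_apply]
    simp only [pt, Matrix.conjTranspose_apply, hB, Matrix.mul_apply, star_prod,
      ← Finset.prod_mul_distrib]
    rw [Finset.prod_univ_sum, Fintype.piFinset_univ]
  rw [e]
  exact Matrix.posSemidef_conjTranspose_mul_self _

theorem pt_one : pt (fun _ : ι => (1 : Matrix C C ℂ)) = 1 := by
  ext p q
  simp only [pt, Matrix.one_apply]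
  by_cases h : p = q
  · simp [h]
  · rw [if_neg h]
    obtain ⟨i, hi⟩ := Function.ne_iff.mp h
    exact Finset.prod_eq_zero (Finset.mem_univ i) (if_neg hi)

theorem pt_smul (c : ι → ℂ) (V : ι → Matrix C C ℂ) :
    pt (fun i => c i • V i) = (∏ i, c i) • pt V := by
  ext p q
  simp only [pt, Matrix.smul_apply, smul_eq_mul, Finset.prod_mul_distrib]

/-- value at the identity -/
theorem pm_one {κ : ι → Ker C} {c : ι → ℂ}
    (h : ∀ i p q, ∑ a, κ i p q a a = if p = q then c i else 0) :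
    pm κ 1 = (∏ i, c i) • (1 : Matrix (ι → C) (ι → C) ℂ) := by
  ext p q
  have h1 : pm κ 1 p q = ∑ a : ι → C, ∏ i, κ i (p i) (q i) (a i) (a i) := by
    refine Finset.sum_congr rfl fun a _ => ?_
    rw [Finset.sum_eq_single a]
    · simp
    · intro b _ hb
      rw [Matrix.one_apply_ne (Ne.symm hb), mul_zero]
    · intro hh; exact absurd (Finset.mem_univ a) hh
  rw [h1]
  have h2 : ∑ a : ι → C, ∏ i, κ i (p i) (q i) (a i) (a i) =
      ∏ i, ∑ a, κ i (p i) (q i) a a := by
    rw [Finset.prod_univ_sum, Fintype.piFinset_univ]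
  rw [h2]
  simp only [h]
  rw [Matrix.smul_apply, Matrix.one_apply]
  by_cases hpq : p = q
  · simp [hpq]
  · rw [if_neg hpq, smul_zero]
    obtain ⟨i, hi⟩ := Function.ne_iff.mp hpq
    exact Finset.prod_eq_zero (Finset.mem_univ i) (if_neg hi)

end Vale.Agent.P372.H948
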